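import Vale.Agent.P181.Quad

/-!
# P181, Foulkes' conjecture: injectivity of the Foulkes-Howe map for `b ≥ (a - 1)²`

`Sym n M` is Mathlib's symmetric power `SymmetricPower ℂ (Fin n) M`, `sprod m` is the product
`m_1 ⋯ m_n` in it (`SymmetricPower.tprod`), and `symMap n g` is the induced map
`m_1 ⋯ m_n ↦ g m_1 ⋯ g m_n`.
-/

namespace Vale.Agent.Results.P181.QuadraticBound

open Vale.Agent.P181

universe u

/-- For all `a, b` with `b ≥ (a-1)²` and every finite-dimensional complex vector space `V`, the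
canonical (Foulkes-Howe) map `Ψ : Sym^a (Sym^b V) → Sym^b (Sym^a V)` exists, is `GL(V)`-equivariant
and is injective. -/
theorem result (a b : ℕ) (hb : (a - 1) ^ 2 ≤ b) (V : Type u) [AddCommGroup V]
    [Module ℂ V] [FiniteDimensional ℂ V] :
    ∃ Ψ : Sym a (Sym b V) →ₗ[ℂ] Sym b (Sym a V),
      IsFoulkesHoweMap Ψ ∧ IsGLEquivariant Ψ ∧ Function.Injective Ψ := by
  obtain ⟨Ψ, hΨ⟩ := exists_foulkesHowe a b V
  refine ⟨Ψ, hΨ, fun g x => ?_, foulkesHowe_injective_quad a b hb V Ψ hΨ⟩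
  have h : Ψ ∘ₗ symMap a (symMap b g.toLinearMap) =
        symMap b (symMap a g.toLinearMap) ∘ₗ Ψ := by
    refine sym_ext_of_span (fun m : Fin b → V => (sprod m : Sym b V)) (span_sprod_eq_top b V)
      (fun w => ?_)
    rw [LinearMap.comp_apply, LinearMap.comp_apply, symMap_sprod, hΨ, map_sum]
    simp only [symMap_sprod]
    rw [hΨ]
  exact congrArg (fun f : Sym a (Sym b V) →ₗ[ℂ] Sym b (Sym a V) => f x) h

end Vale.Agent.Results.P181.QuadraticBound
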